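import Crest.Agent.SG.Orient

/-!
# Certificate: the shape [1] is full
-/

set_option autoImplicit false
set_option maxRecDepth 100000

namespace Crest.Agent.SG

def d1_0 : List ℕ :=
  [0x1041]

def d1 : List ℕ := d1_0

theorem c1 : chkF gensS 1 (prt 3 1 1) d1 = true := by
  decide +kernel

theorem code1 : code [1] = 1 := by
  decide +kernel

theorem part1 : IsPart [1] := by
  refine ⟨by decide, by decide⟩

theorem full1 : Full [1] := by
  refine full_of_chk gensS gensS_good part1 (by decide) (n := 1) (by decide) (by norm_num) d1
    (f := 3) (by norm_num) ?_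
  rw [code1]
  exact c1

end Crest.Agent.SG
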