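import Crest.Agent.SG.Orient

/-!
# Certificate: the shape [5, 2, 1, 1, 1] is full
-/

set_option autoImplicit false
set_option maxRecDepth 100000

namespace Crest.Agent.SG

def d10_0 : List ℕ :=
  [0x10430c600b201042047, 0x10830c6041081201042047, 0x10c2082041201082189041047, 0x410c3141082089081047, 0x1102101102147, 0x10410841810c2148041047, 0x44085042084241042049, 0x410441060810c8041047, 0x10c2083041201082189, 0x14b081088081049, 0x10b041048041049, 0x10440c6081088081047, 0x32c1082188041049, 0x1102142042241082049, 0x12c10410c1201042049, 0x411430c1082189, 0x30420c104a081088081049, 0x32c02c8041049, 0x32c10820c8041049, 0x45083081087081049, 0x411430c02c9, 0x1041085146]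

def d10 : List ℕ := d10_0

theorem c10 : chkF gensS 281543712972805 (prt 21 10 10) d10 = true := by
  decide +kernel

theorem code10 : code [5, 2, 1, 1, 1] = 281543712972805 := by
  decide +kernel

theorem part10 : IsPart [5, 2, 1, 1, 1] := by
  refine ⟨by decide, by decide⟩

theorem full10 : Full [5, 2, 1, 1, 1] := by
  refine full_of_chk gensS gensS_good part10 (by decide) (n := 10) (by decide) (by norm_num) d10
    (f := 21) (by norm_num) ?_
  rw [code10]
  exact c10

end Crest.Agent.SG
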