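import Crest.Agent.SG.Orient

/-!
# Certificate: the shape [4, 3, 3, 1] is full
-/

set_option autoImplicit false
set_option maxRecDepth 100000

namespace Crest.Agent.SG

def d11_0 : List ℕ :=
  [0x10830c60810c80c10c7, 0x820840c10ca041083149, 0x10c20c20821490c10c7, 0xc10c02c90810c80c10c9, 0x810820412020821490c10c9, 0x82086042086201082181041207, 0x2082181082188081082041209, 0x820860420862002c1041209, 0x820860420862010c20c9, 0x20821802c8081082041209, 0x2082181082148041083149, 0x8208600b2010c20c9, 0x10c20c20821880c10c9, 0x18b, 0x1cb, 0x20b, 0x12c10821880c10c9, 0x8b0810c80c10c9, 0x24b, 0x28b0810c8081082041209, 0x12c02c80c10c9, 0x12c10820c80c10c9, 0x30c30c6041048041047, 0x2cb, 0x30b, 0x34b0810c80c10c9, 0x10420c40410831470c10c9, 0x20c20c02c80c10c9, 0x430c4106]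

def d11 : List ℕ := d11_0

theorem c11 : chkF gensS 68769820676 (prt 23 11 11) d11 = true := by
  decide +kernel

theorem code11 : code [4, 3, 3, 1] = 68769820676 := by
  decide +kernel

theorem part11 : IsPart [4, 3, 3, 1] := by
  refine ⟨by decide, by decide⟩

theorem full11 : Full [4, 3, 3, 1] := by
  refine full_of_chk gensS gensS_good part11 (by decide) (n := 11) (by decide) (by norm_num) d11
    (f := 23) (by norm_num) ?_
  rw [code11]
  exact c11

end Crest.Agent.SG
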