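import Crest.Agent.SG.Orient

/-!
# Certificate: the shape [5, 3, 2, 1, 1] is full
-/

set_option autoImplicit false
set_option maxRecDepth 100000

namespace Crest.Agent.SG

def d12_0 : List ℕ :=
  [0x10830c600b2010820c7, 0x450830420c3189, 0x12c10430c6201042047, 0x10830c600b2002c7, 0x10820c60430862010820c7, 0x10420841810c21480810c7, 0x41083106041083148041047, 0x850830410c3189, 0x2082102082149081088081047, 0x4b041083188081049041049, 0x10420c60430862010c20c9, 0x8308500b2410c2187, 0x10820c5043086241082189, 0x10820c60430862002c7, 0x22c1041084149041047, 0x42103181082108081047, 0x410c3141082189081082041209, 0x38b081048081049, 0x3cb0430862010820c9, 0x10430c30820862002c9, 0x411030c20821880810c9, 0x8b042086201082189, 0x10820c6043086201082187, 0x10830c6042086201082187, 0x34b042086201082189, 0x8b00b2002c9, 0x10b0c10c8041049, 0x11420c22c9, 0x32c12c8041049, 0xd2c1041084149041047, 0x12c10420c32002c9, 0x411430c12c9, 0x431430c1082189, 0x1082183041243042042086289, 0x34b00b2002c9, 0x420831010820c51c1042049, 0x11420cd2c9, 0xc5083081087081049, 0x431430c02c9, 0x10420c5146]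

def d12 : List ℕ := d12_0

theorem c12 : chkF gensS 281543729754117 (prt 25 12 12) d12 = true := by
  decide +kernel

theorem code12 : code [5, 3, 2, 1, 1] = 281543729754117 := by
  decide +kernel

theorem part12 : IsPart [5, 3, 2, 1, 1] := by
  refine ⟨by decide, by decide⟩

theorem full12 : Full [5, 3, 2, 1, 1] := by
  refine full_of_chk gensS gensS_good part12 (by decide) (n := 12) (by decide) (by norm_num) d12
    (f := 25) (by norm_num) ?_
  rw [code12]
  exact c12

end Crest.Agent.SG
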