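import Crest.Agent.SG.Orient

/-!
# Certificate: the shape [5, 3, 3, 1, 1] is full
-/

set_option autoImplicit false
set_option maxRecDepth 100000

namespace Crest.Agent.SG

def d13_0 : List ℕ :=
  [0x11020c02c90810c80c10c7, 0x10420841810c21480c10c7, 0x10830c600b2010c20c9, 0x410841060810c80c10c7, 0x10820c60430862010c20c9, 0x1cb041048041047, 0x20b041048041047, 0xa2c10820c80410c3189, 0x420830c10821880410c3189, 0x24b041048041047, 0x20821402c808104a0c10c9041049, 0x4108210608104a0810890c10c7, 0x420830c02c80410c3189, 0xc50830410c3189, 0x40b, 0x18b041048041049, 0x420831810c2188081082041207, 0xc10420422020c21490c10c9, 0x20820820412010c21890c10c9, 0x44b, 0x20c21410821490410c3187, 0x20821810c21480410c3149, 0x208214108210a081048081082041209, 0x420831410c2189081082041209, 0x122c1082103042289041047, 0x10820c50430862410c20c9, 0x2cb041048041047, 0x30b041048041047, 0x3cb0430862010c20c9, 0x10430c50410831070c10c9041047, 0x411030c20821880c10c9, 0x8b042086201082181041209, 0x22c1082188081082041209, 0x4cb041048041049, 0x50b041048041049, 0x22c02c8081082041209, 0x54b041048041049, 0x10b0810c80c10c9,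 0x122d62c8041049, 0xd2c1082188081082041209, 0x5cb041048041049, 0x34b0420862010c20c9, 0xa2c02c80410c30c9, 0x11020ca2c80c10c9, 0x430c4106041048041047, 0xd2c02c8081082041209, 0x60b041048041049, 0x64b041048041049, 0x32c30c20c8041049, 0x10c50c3081082041209, 0x421030c02c80c10c9, 0x10430c5146]

def d13 : List ℕ := d13_0

theorem c13 : chkF gensS 281543746531333 (prt 27 13 13) d13 = true := by
  decide +kernel

theorem code13 : code [5, 3, 3, 1, 1] = 281543746531333 := by
  decide +kernel

theorem part13 : IsPart [5, 3, 3, 1, 1] := by
  refine ⟨by decide, by decide⟩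

theorem full13 : Full [5, 3, 3, 1, 1] := by
  refine full_of_chk gensS gensS_good part13 (by decide) (n := 13) (by decide) (by norm_num) d13
    (f := 27) (by norm_num) ?_
  rw [code13]
  exact c13

end Crest.Agent.SG
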