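import Crest.Agent.SG.Orient
import Crest.Agent.SG.Cert.N12

/-!
# Certificate: the shape [6, 3, 2, 1, 1, 1] is full
-/

set_option autoImplicit false
set_option maxRecDepth 100000

namespace Crest.Agent.SG

def d14_0 : List ℕ :=
  [0x10410c41010420c62810c2187, 0xcb041049082086201082189, 0x68b0420c3149081047, 0x3cb041081281041084188081047, 0x410831810c21880410c3188041047, 0x21021410420c62410c2189, 0x411031810820c6201082047, 0x10b042086201082189, 0x41082106044086201082187, 0xcb28b201082189, 0xcb28b2002c9, 0x8208208208121b2c9]

def d14 : List ℕ := d14_0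

theorem c14 : chkF gensS 1153203048336601094 (tightL 14 14) d14 = true := by
  decide +kernel

theorem code14 : code [6, 3, 2, 1, 1, 1] = 1153203048336601094 := by
  decide +kernel

theorem part14 : IsPart [6, 3, 2, 1, 1, 1] := by
  refine ⟨by decide, by decide⟩

theorem full14 : Full [6, 3, 2, 1, 1, 1] := by
  refine full_arm gensS gensS_good full12 part14 (by decide) (by decide) (n := 14) (by decide)
    (by norm_num) (by norm_num) d14 ?_
  rw [code14]
  exact c14

end Crest.Agent.SG
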