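import Crest.Agent.SG.Orient
import Crest.Agent.SG.Cert.N13

/-!
# Certificate: the shape [6, 3, 3, 1, 1, 1] is full
-/

set_option autoImplicit false
set_option maxRecDepth 100000

namespace Crest.Agent.SG

def d15_0 : List ℕ :=
  [0x420c31410c21890410c3187, 0x1b2c20821880410c3189, 0x820850810890c10880c10490c1047, 0x820860c10870c10480410c3187, 0xf2c10412410c21880410c3187, 0x410c318a2c80410c3187, 0x1042084181102188081082041207, 0x420831810c21880410c3188041047, 0x420c31810821880410c3188041047, 0xc10420422010c2049082083149, 0xc30850c10490c10870c1049, 0x10b042086201082181041209, 0x8208315b2c90c1047, 0x28b04208621b2c8041049, 0x32ca2c8081082041209, 0x34b081087081048081082041207041049]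

def d15 : List ℕ := d15_0

theorem c15 : chkF gensS 1153203048353378310 (tightL 15 15) d15 = true := by
  decide +kernel

theorem code15 : code [6, 3, 3, 1, 1, 1] = 1153203048353378310 := by
  decide +kernel

theorem part15 : IsPart [6, 3, 3, 1, 1, 1] := by
  refine ⟨by decide, by decide⟩

theorem full15 : Full [6, 3, 3, 1, 1, 1] := by
  refine full_arm gensS gensS_good full13 part15 (by decide) (by decide) (n := 15) (by decide)
    (by norm_num) (by norm_num) d15 ?_
  rw [code15]
  exact c15

end Crest.Agent.SG
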