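import Crest.Agent.SG.Orient
import Crest.Agent.SG.Cert.N16

/-!
# Certificate: the shape [7, 4, 2, 2, 1, 1, 1] is full
-/

set_option autoImplicit false
set_option maxRecDepth 100000

namespace Crest.Agent.SG

def d18_0 : List ℕ :=
  [0x810c3042201042047082086242142147, 0x204304208308a043086202142147, 0x810c20c214a043085242142149, 0x1010810420c62010420c3242102187, 0x204208208314a044085201102187, 0x2c208208a043086202142149, 0x20420c10c9084085202142149, 0x30420410421052410430c6201102187, 0x410410c21870c3085202142149, 0x8108108214a084085202142149, 0x81081082147084085202142149, 0x30421010480c408524208218a, 0x20420820842420830c5241102187, 0x20821410420c22810420c6202102187, 0x10410430842410c30c5242102187, 0x810820411c02c7082085242142147, 0x20420420811c10c30c5242102187, 0x83082085086202102187, 0x4042041103149043086202082149, 0x20c20820820c4202042241102187, 0xb0410830c9085086202082187, 0xc10420c2089084085202082149, 0x810c10410c408a0410821062410c2149, 0x20410820842420420820852880420861c1082189, 0x10c21850422010820c62410c2149, 0x1041082146085086202082187, 0x10410410420851490410821062410c2149, 0x10410841820c2189083085201082189, 0x810830412820c2108082082202082149, 0x410831810c2189081048082082202082149]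

def d18 : List ℕ := d18_0

theorem c18 : chkF gensL 4723519685986701295623 (tightL 18 18) d18 = true := by
  decide +kernel

theorem code18 : code [7, 4, 2, 2, 1, 1, 1] = 4723519685986701295623 := by
  decide +kernel

theorem part18 : IsPart [7, 4, 2, 2, 1, 1, 1] := by
  refine ⟨by decide, by decide⟩

theorem full18 : Full [7, 4, 2, 2, 1, 1, 1] := by
  refine full_arm gensL gensL_good full16 part18 (by decide) (by decide) (n := 18) (by decide)
    (by norm_num) (by norm_num) d18 ?_
  rw [code18]
  exact c18

end Crest.Agent.SG
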