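import Crest.Agent.SG.Orient
import Crest.Agent.SG.Cert.N17

/-!
# Certificate: the shape [7, 4, 3, 2, 1, 1, 1] is full
-/

set_option autoImplicit false
set_option maxRecDepth 100000

namespace Crest.Agent.SG

def d19_0 : List ℕ :=
  [0xc10c02c9042103149041103187, 0x104204208218804114310a041103187, 0x8108208214900b2810430c6201102187, 0x10410410821052420c2188042103149, 0x10c21010430c52820c21880410c3187, 0x1082101082149042103149041103187, 0xc10c1082189042103149041103187, 0x204304208124104110410a042103187, 0x4208408208314a044085201102187, 0x10c21010820c52410430c6201102187, 0x10821840422020c2188042103149, 0xc10810c21470420c3188041103187, 0x10821402ca0820c3149041103187, 0x810c10c21870820c3149041103187, 0x204100b24104110410a042103187, 0x410c30c3102149042103187, 0x810420820880420842410430c6201102187, 0x204208104808104a0430c3149041103187, 0x10821010820c5281102188041103187, 0x420840c10470430c3149041103187, 0x30420420861c2102188042103187, 0x10821410821870820c3149041103187, 0x20420c104a0430c3149042103187, 0x4104208214a042103188042103187, 0x810821020480430861c1082084149, 0x10821010c20c9041103188041103187, 0x10410820842020830c5241041104187, 0x810810440c32820830c62010c2187, 0x10820810420c52820c2189042103149,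 0x4104104108418804208318a0820842010c2189, 0x4108318208218900b2810410841890c1049, 0x410831060421031880410c3187, 0x4104310608208318a00b2410c2187, 0x20420820852020411c20820c4202042241082187, 0x8104104108410a044086241082084149, 0x10c218404124404204108318a1c1082189, 0x10430c60440862420411c1082084149]

def d19 : List ℕ := d19_0

theorem c19 : chkF gensL 4723519685986718072839 (tightL 19 19) d19 = true := by
  decide +kernel

theorem code19 : code [7, 4, 3, 2, 1, 1, 1] = 4723519685986718072839 := by
  decide +kernel

theorem part19 : IsPart [7, 4, 3, 2, 1, 1, 1] := by
  refine ⟨by decide, by decide⟩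

theorem full19 : Full [7, 4, 3, 2, 1, 1, 1] := by
  refine full_arm gensL gensL_good full17 part19 (by decide) (by decide) (n := 19) (by decide)
    (by norm_num) (by norm_num) d19 ?_
  rw [code19]
  exact c19

end Crest.Agent.SG
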