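import Crest.Agent.SG.Orient
import Crest.Agent.SG.Cert.N19

/-!
# Certificate: the shape [8, 4, 3, 2, 1, 1, 1, 1] is full
-/

set_option autoImplicit false
set_option maxRecDepth 100000

namespace Crest.Agent.SG

def d21_0 : List ℕ :=
  [0x10821810c20c9042143149041103187, 0x810420820c5201142188042103187, 0x810c20412010820c22810c2188042143147, 0x42084082085281041144149041103187, 0x420c3182142148042143147, 0x2c10420c4241042104149041103187, 0x820820820830480420812810820c4147, 0xc10c3042241041144149042103187, 0x20410820822020412820840c5241102187, 0x10821850422020c2188042143149, 0x208214214208a1010490420c3187, 0x30420830c310a04408228110218a, 0x410831830c214a0c1049042143149, 0x10410841810430c61c20c2148041103187, 0x10420c60830851c10410c4188041103187, 0x42084042085242142148042143149, 0x430820410431052820c2188041103187, 0x810402c8101089101049042143149, 0x108210108204904104110510a042103187, 0x20430410c3048043082242041201042104187, 0x420860c30822030411c10420c6241102187, 0x10410410421062040421c20c2188041103187, 0xc10410c2107043103149041103187, 0xc10410c2109043103149041103187, 0x810410420c4243102148042143149, 0x410410430c42410430c4149042103187, 0x810c02c8043082241142188041103187, 0x2c20820c4202082089042143147, 0x2042043085281042104149042103187,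 0x10821802c7041044106201042104187, 0x81081082047041084106201042104187, 0x420860c30822010821870c1049041103187, 0x8108208214800b241142188041103187, 0x40420820861c1142188042103187, 0x42084041082105281142188041103187, 0x420860c1047042083105241041104187, 0x20420430811c10430c4149042103187, 0x10430c10410c3105241042104187, 0x20420410821061c1142188042103187, 0x1041041082105282142188042103187, 0x20420820861c1041144188042103187, 0x10420c40410431022810420c4189101049, 0x10410c41810830c6281102088101049, 0x420860c104a042083105241041104187, 0x430861010470440842410820c4149, 0x10420c418104110418a0c1089101047, 0x108208418104110418a00b2410c2047, 0xc10420820c2202082108081048081087101049, 0x4104210604208318908104a0410410851890c1049, 0x4104210604208318908104a0410421062410c2049, 0x10410831460421431880410c3187, 0x10410431460820c318a0420822410c2187, 0x20420420830c90450862820c21080c104a, 0x10410410c31870440862420411c10820c4149, 0x50420440862820420810481c20821080c1049, 0x10430c60440862420820c5202042201082049]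

def d21 : List ℕ := d21_0

theorem c21 : chkF gensL 19347536633520053513371656 (tightL 21 21) d21 = true := by
  decide +kernel

theorem code21 : code [8, 4, 3, 2, 1, 1, 1, 1] = 19347536633520053513371656 := by
  decide +kernel

theorem part21 : IsPart [8, 4, 3, 2, 1, 1, 1, 1] := by
  refine ⟨by decide, by decide⟩

theorem full21 : Full [8, 4, 3, 2, 1, 1, 1, 1] := by
  refine full_arm gensL gensL_good full19 part21 (by decide) (by decide) (n := 21) (by decide)
    (by norm_num) (by norm_num) d21 ?_
  rw [code21]
  exact c21

end Crest.Agent.SG
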