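import Crest.Agent.SG.Orient
import Crest.Agent.SG.Cert.N20

/-!
# Certificate: the shape [8, 5, 2, 2, 2, 1, 1, 1] is full
-/

set_option autoImplicit false
set_option maxRecDepth 100000

namespace Crest.Agent.SG

def d22_0 : List ℕ :=
  [0x30430460822010820c6242142187, 0x10c20810430c52020422810440c62020c2149, 0x810c10850c4285042282142187, 0x20411010c80420842820820c2202142187, 0x30420820861c10410c4149084086201082187, 0x204308208308808108a085085201102147, 0x810811020c90c4085203142149, 0x1041082085202082187044085243142149, 0x10420410820c61c10c40c5242142187, 0x810c30421c2082187044085243142149, 0x20821410410c408a082085203142149, 0x204304108308a0420831c10820c6243142149, 0x810820412410830c32810820c2202142187, 0x204204208520208208a044086203142147, 0x20420c308524208208a044086201102149, 0x810c20820c22810440c6203142147, 0x810c108208808108a085085203142149, 0xb00b1c02ca0c3082202142187, 0x82081082083149041083187043086202082189, 0x410410c2188101088044086203142149, 0x20410c30852410420c12410830c6202082187, 0x4208204108314a0c4085203142149, 0x3042041083149085085203142149, 0x10820c10420c61c10c40c5242142187, 0x8108208214a0c108a044086203142149, 0xc108208214a085085203142149, 0xc1082082147085085203142149, 0x810802c8081087085085203142149,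 0x1010c10420c62410820c6242142148081049, 0x40420c308520108218a082086241102149, 0x8104208208a041083187082086243142149, 0x11021830c208a082086242142187, 0x810810820480810890c4085203142149, 0x420820820852810840c5203142149, 0x20430440842420c30c5242142187, 0x20430410421062410c40c5242142187, 0xc10810c21470c4085203142149, 0xc10810c214a0c4085203142149, 0x20420421030480830841c3142149, 0x420860410c308a081087082085203142149, 0x820840820862410412420422020820c2201102149, 0x10821820c214a0c30842810420c6242082189, 0x410831810c218a0810890c5085242082189, 0x20420830842420c30c5242142187, 0x30c208210218a042086242142187, 0x20420810470420861c20c30c5242142187, 0x20430810890420811c20c30c5242142187, 0x10821810420c31c20c30c5242142187, 0x8104104208418818108a083085241082187, 0x204208104700b1c20c30c5242142187, 0x30c20821020480830841c1102149, 0x21020821020480830841c20c2149, 0x810820821870830842020820c2201102149, 0x420860410c30c908408628210210808104a, 0xc10830411c30c21070c3085202082189, 0x11421010440c62010820c62420c2149, 0x108214108208a1010890c40852020c2149, 0x30420820851c30c2108082082201102149, 0x420840410410421862010410821462420c2149, 0xc10810410821432810410821462420c2149, 0x30410c30822010c21480c3085201082189, 0xc10830411c30c21080830822020c2149,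 0x20410420841c10820c22810410821462420c2149, 0x410420821860c6086202082187, 0x810c10410821422810420821462420c2149, 0x10410821460850862830422020c2149, 0x420831810430c62420412010820c22020c2149, 0xc1083041282082088081087082085202082148081049]

def d22 : List ℕ := d22_0

theorem c22 : chkF gensL 19347536633801528473309192 (tightL 22 22) d22 = true := by
  decide +kernel

theorem code22 : code [8, 5, 2, 2, 2, 1, 1, 1] = 19347536633801528473309192 := by
  decide +kernel

theorem part22 : IsPart [8, 5, 2, 2, 2, 1, 1, 1] := by
  refine ⟨by decide, by decide⟩

theorem full22 : Full [8, 5, 2, 2, 2, 1, 1, 1] := by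
  refine full_arm gensL gensL_good full20 part22 (by decide) (by decide) (n := 22) (by decide)
    (by norm_num) (by norm_num) d22 ?_
  rw [code22]
  exact c22

end Crest.Agent.SG
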