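import Crest.Agent.SG.Orient
import Crest.Agent.SG.Cert.N21

/-!
# Certificate: the shape [9, 4, 3, 2, 1, 1, 1, 1, 1] is full
-/

set_option autoImplicit false
set_option maxRecDepth 100000

namespace Crest.Agent.SG

def d23_0 : List ℕ :=
  [0x10420c4041042106241102049042183147, 0xc1041082082145241041044049042103187, 0x4104208210a041043049043143149041103187, 0x42084042085242182148042183149, 0x11020811021480410490420c3188041103187, 0x1010811020490830812410830c4149, 0x810420830c5201182188042103187, 0x810810c20c90420831c1102189042183149, 0x420850420830890420861c1142148041103187, 0x4208604208410428110208a041103187, 0x420860410431022820c2188042183149, 0x30420c30852820c2049042183147, 0x10420c60c30852810c2049042183147, 0x10821860422020c2188042183147, 0x810410420c4243142148042183149, 0x20821410850c22810c2049042103187, 0x420c3182182148042183147, 0x10410410410821852420c2188042183147, 0x810410430c61c1041084145241041104187, 0x10820810440c52820c2189042183149, 0x810830432410411c1041045145241042104187, 0x40411040822011020490420c3187, 0x410421060440862030422010430c6201102187, 0x1010450422030421c20c2188041103187, 0x10821840422010c2187041041085188041103187, 0x430840410c30480c10890410c3188041103187, 0x810410820c2281082187041041085188042103187, 0x204114108808208124110208a042103187,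 0x810450422050421c20c2188041103187, 0x410c31810410421461c2102148041103187, 0xc10441020880410c3049042103187, 0xc10810430c12010820890420c3188041103187, 0x10410830852810c214a041041085188042103187, 0x10c210218204910108a042103187, 0x410831810440c22010430c1241042104187, 0x810c40422410c214a041041085188042103187, 0x810c20412410430c2241182188042103187, 0x30420410c30490840812410830c4149, 0x410410430c4241041084145241042104187, 0x20430410431012010430c2242041201042104187, 0x1410810830c61c1142148041103187, 0xc10820c30c120210208a041103187, 0x440840410c3187045086201041104187, 0x430860440841c10450c6201041104187, 0x440860850822810c2189042103187, 0x4208404104208514a045081201041104187, 0x410421021480c4081241082104149, 0xb0850822810430c1241042104187, 0x10c214104108408a041042085188042103187, 0x10c2181102107044081241082104149, 0x20420430811c1041084145241042104187, 0x4208600b1c1041045146201042104187, 0x820830820820c12020411c40421c1102189, 0x404114108a08108a0420c3188041103187, 0x1410850411c10830c6201041104187, 0x8108208214704108304a041041085188042103187, 0x20821850421c1182188042103187, 0x20410420830890c4081241082104149, 0x810420c30c22010830c1241041104187, 0x10c218214208a043081241042104187, 0x420860850822810430c1241042104187, 0x10410c40410410c3145241042104187,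 0x810810410821461c1182188042103187, 0x41041041082145282182188042103187, 0x420840410410421852821821880410c3187, 0x10821410830c1285042241082104149, 0x10420c40410410c508a0410420c5189101049, 0x10420c41810450c6284042201102049, 0x410410410431461c10850c6201041104187, 0x10821010410c40c9041183188041103187, 0x1010810c40c12420411c10830c4149, 0x410831010420c408a0410441062420c2049, 0x10821840421c20820470420821052020c2049, 0x810820820c52020820c12040421c20c2049, 0x410421060420831890420812810410410861890c1049, 0x1010441421490830821c20c2049, 0x410410831860421831880410c3187, 0x4104104318608210318a0420822410c2187, 0x20430420812440422820820470830822020c2049, 0x420860430822420820470420821052020c2049, 0x60420450862820420810481c20821080c1049, 0x101084041282042202042202082108082081201082149]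

def d23 : List ℕ := d23_0

theorem c23 : chkF gensL 79247510050897857647057321993 (tightL 23 23) d23 = true := by
  decide +kernel

theorem code23 : code [9, 4, 3, 2, 1, 1, 1, 1, 1] = 79247510050897857647057321993 := by
  decide +kernel

theorem part23 : IsPart [9, 4, 3, 2, 1, 1, 1, 1, 1] := by
  refine ⟨by decide, by decide⟩

theorem full23 : Full [9, 4, 3, 2, 1, 1, 1, 1, 1] := by
  refine full_arm gensL gensL_good full21 part23 (by decide) (by decide) (n := 23) (by decide)
    (by norm_num) (by norm_num) d23 ?_
  rw [code23]
  exact c23

end Crest.Agent.SG
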