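import Crest.Agent.SG.Orient

/-!
# Certificate: the shape [2, 1] is full
-/

set_option autoImplicit false
set_option maxRecDepth 100000

namespace Crest.Agent.SG

def d3_0 : List ℕ :=
  [0xb, 0x42086]

def d3 : List ℕ := d3_0

theorem c3 : chkF gensS 4098 (prt 7 3 3) d3 = true := by
  decide +kernel

theorem code3 : code [2, 1] = 4098 := by
  decide +kernel

theorem part3 : IsPart [2, 1] := by
  refine ⟨by decide, by decide⟩

theorem full3 : Full [2, 1] := by
  refine full_of_chk gensS gensS_good part3 (by decide) (n := 3) (by decide) (by norm_num) d3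
    (f := 7) (by norm_num) ?_
  rw [code3]
  exact c3

end Crest.Agent.SG
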