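import Crest.Agent.SG.Orient

/-!
# Certificate: the shape [3, 1, 1] is full
-/

set_option autoImplicit false
set_option maxRecDepth 100000

namespace Crest.Agent.SG

def d5_0 : List ℕ :=
  [0x42086041048041047, 0x2042081048041049, 0xb041048041049, 0x10430c6]

def d5 : List ℕ := d5_0

theorem c5 : chkF gensS 16781315 (prt 11 5 5) d5 = true := by
  decide +kernel

theorem code5 : code [3, 1, 1] = 16781315 := by
  decide +kernel

theorem part5 : IsPart [3, 1, 1] := by
  refine ⟨by decide, by decide⟩

theorem full5 : Full [3, 1, 1] := by
  refine full_of_chk gensS gensS_good part5 (by decide) (n := 5) (by decide) (by norm_num) d5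
    (f := 11) (by norm_num) ?_
  rw [code5]
  exact c5

end Crest.Agent.SG
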