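import Crest.Agent.SG.Orient

/-!
# Certificate: the shape [3, 2, 1] is full
-/

set_option autoImplicit false
set_option maxRecDepth 100000

namespace Crest.Agent.SG

def d6_0 : List ℕ :=
  [0x4b041047, 0xc10c1082189, 0x8b, 0x1082101082149, 0xc10c02c9, 0x10830c6]

def d6 : List ℕ := d6_0

theorem c6 : chkF gensS 16785411 (prt 13 6 6) d6 = true := by
  decide +kernel

theorem code6 : code [3, 2, 1] = 16785411 := by
  decide +kernel

theorem part6 : IsPart [3, 2, 1] := by
  refine ⟨by decide, by decide⟩

theorem full6 : Full [3, 2, 1] := by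
  refine full_of_chk gensS gensS_good part6 (by decide) (n := 6) (by decide) (by norm_num) d6
    (f := 13) (by norm_num) ?_
  rw [code6]
  exact c6

end Crest.Agent.SG
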