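import Crest.Agent.SG.Orient

/-!
# Certificate: the shape [4, 1, 1, 1] is full
-/

set_option autoImplicit false
set_option maxRecDepth 100000

namespace Crest.Agent.SG

def d7_0 : List ℕ :=
  [0xb041048041049041048041047, 0x30420c1048041047, 0x304208104a041049041047, 0x10430c6041048041047, 0xcb041049, 0x1082082041201042049, 0xb041081201042049, 0x41044106]

def d7 : List ℕ := d7_0

theorem c7 : chkF gensS 68736258052 (prt 15 7 7) d7 = true := by
  decide +kernel

theorem code7 : code [4, 1, 1, 1] = 68736258052 := by
  decide +kernel

theorem part7 : IsPart [4, 1, 1, 1] := by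
  refine ⟨by decide, by decide⟩

theorem full7 : Full [4, 1, 1, 1] := by
  refine full_of_chk gensS gensS_good part7 (by decide) (n := 7) (by decide) (by norm_num) d7
    (f := 15) (by norm_num) ?_
  rw [code7]
  exact c7

end Crest.Agent.SG
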