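import Crest.Agent.SG.Orient

/-!
# Certificate: the shape [4, 2, 1, 1] is full
-/

set_option autoImplicit false
set_option maxRecDepth 100000

namespace Crest.Agent.SG

def d8_0 : List ℕ :=
  [0x41083181082148041047, 0x10430c60810c8041047, 0x10b, 0x10c21010c2149, 0x43085081089081049, 0x410831402c9041047, 0x11020c1082189, 0x204208104a081088081049, 0xcb0810c9, 0xb00b201042049, 0x11020c02c9, 0x41084106]

def d8 : List ℕ := d8_0

theorem c8 : chkF gensS 68736262148 (prt 17 8 8) d8 = true := by
  decide +kernel

theorem code8 : code [4, 2, 1, 1] = 68736262148 := by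
  decide +kernel

theorem part8 : IsPart [4, 2, 1, 1] := by
  refine ⟨by decide, by decide⟩

theorem full8 : Full [4, 2, 1, 1] := by
  refine full_of_chk gensS gensS_good part8 (by decide) (n := 8) (by decide) (by norm_num) d8
    (f := 17) (by norm_num) ?_
  rw [code8]
  exact c8

end Crest.Agent.SG
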